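/-
Helper4 — S0175 project, package TR: transfer of the two-shell hypotheses along a measurable
equivalence (`GeomSpec.twoShellHyp_transfer`, verbatim statement).
-/
import Mathlib
import Crest.Agent.Helper32.TwoShellDefs

set_option autoImplicit false
open MeasureTheory Set
open scoped ENNReal

namespace Crest.Agent.Helper4

open Crest.Agent.Helper32

/-- membership in the transported support -/
theorem mem_tsS_transfer {E M Y : Type*} [MeasurableSpace E] [MeasurableSpace M]
    (ΦA ΦB : Y × ℝ → M) (e : E ≃ᵐ M) (x : E)
    (hx : x ∈ tsS (fun p => e.symm (ΦA p)) (fun p => e.symm (ΦB p))) :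
    e x ∈ tsS ΦA ΦB := by
  rcases hx with ⟨p, hp⟩ | ⟨p, hp⟩
  · left
    refine ⟨p, ?_⟩
    have := congrArg e hp
    simpa using this
  · right
    refine ⟨p, ?_⟩
    have := congrArg e hp
    simpa using this

theorem twoShellHyp_transfer {E M Y : Type*} [MeasurableSpace E] [MeasurableSpace M]
    [MeasurableSpace Y] (ν : Measure Y) (ΦA ΦB : Y × ℝ → M) (g : Y → ℝ) (c : M × M × M → ℝ≥0∞)
    (u : M → ℝ) (h : TwoShellHyp ν ΦA ΦB g c u) (e : E ≃ᵐ M) (c' : E × E × E → ℝ≥0∞)
    (hc : ∀ x y z, c' (x, y, z) = c (e x, e y, e z)) :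
    TwoShellHyp ν (fun p => e.symm (ΦA p)) (fun p => e.symm (ΦB p)) g c' (fun x => u (e x)) := by
  have hc' : c' = fun p : E × E × E => c (e p.1, e p.2.1, e p.2.2) := by
    funext p
    obtain ⟨x, y, z⟩ := p
    exact hc x y z
  refine
    { mass := h.mass
      measA := e.symm.measurable.comp h.measA
      measB := e.symm.measurable.comp h.measB
      perA := fun b t => congrArg e.symm (h.perA b t)
      perB := fun b t => congrArg e.symm (h.perB b t)
      injA := fun b t b' t' ht ht' heq => h.injA b t b' t' ht ht' (e.symm.injective heq)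
      injB := fun b t b' t' ht ht' heq => h.injB b t b' t' ht ht' (e.symm.injective heq)
      disj := fun p q heq => h.disj p q (e.symm.injective heq)
      measg := h.measg
      measc := ?_
      symm12 := fun x y z => by rw [hc, hc]; exact h.symm12 _ _ _
      symm23 := fun x y z => by rw [hc, hc]; exact h.symm23 _ _ _
      measu := h.measu.comp e.measurable
      bddu := ?_
      adm := ?_
      contact := ?_
      contact_nonneg := ?_
      rigAA := ?_
      rigBA := ?_
      cont := ?_ }
  · rw [hc']
    exact h.measc.comp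
      ((e.measurable.comp measurable_fst).prodMk
        ((e.measurable.comp (measurable_fst.comp measurable_snd)).prodMk
          (e.measurable.comp (measurable_snd.comp measurable_snd))))
  · obtain ⟨B, hB⟩ := h.bddu
    refine ⟨B, fun p => ?_⟩
    simpa using hB p
  · intro x y z hx hy hz
    rw [hc]
    exact h.adm (e x) (e y) (e z) (mem_tsS_transfer ΦA ΦB e x hx) (mem_tsS_transfer ΦA ΦB e y hy)
      (mem_tsS_transfer ΦA ΦB e z hz)
  · intro b t
    rw [hc]
    simpa using h.contact b t
  · intro b t
    simpa using h.contact_nonneg b t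
  · intro p q z hz
    rw [hc]
    simpa using h.rigAA p q (e z) (mem_tsS_transfer ΦA ΦB e z hz)
  · intro b t q z hz heq
    rw [hc] at heq
    have heq' : c (ΦB (b, t), ΦA q, e z) = ENNReal.ofReal (u (ΦB (b, t)) + u (ΦA q) + u (e z)) := by
      simpa using heq
    rcases h.rigBA b t q (e z) (mem_tsS_transfer ΦA ΦB e z hz) heq' with h1 | h1
    · left; exact congrArg e.symm h1
    · right; exact congrArg e.symm h1
  · intro ε hε
    obtain ⟨η, hη, H⟩ := h.cont ε hε
    refine ⟨η, hη, fun b t t₁ t₂ h1 h2 => ?_⟩
    rw [hc, hc]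
    simpa using H b t t₁ t₂ h1 h2

end Crest.Agent.Helper4
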